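import Mathlib

/-!
The abstract game: if from every unit vector and every "cofinite" subspace one can step by a
vector of norm two staying on the sphere up to `η`, then no equivalent norm is asymptotically
uniformly convex.
-/

namespace Crest.Agent.S0167Lib

variable {X : Type*} [NormedAddCommGroup X] [NormedSpace ℝ X]

theorem no_auc_core (Cof : Set X → Prop) (hCof : ∀ F, Cof F → ∃ S : Submodule ℝ X, (S : Set X) = F)
    (x₀ : X) (hx₀ : ‖x₀‖ = 1)
    (hgame : ∀ x : X, ‖x‖ = 1 → ∀ F, Cof F → ∀ η : ℝ, 0 < η →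
      ∃ y ∈ F, ‖y‖ = 1 ∧ ‖x + (2 : ℝ) • y‖ ≤ 1 + η)
    (N : X → ℝ) (hN1 : ∀ x y, N (x + y) ≤ N x + N y) (hN2 : ∀ (a : ℝ) x, N (a • x) = |a| * N x)
    (a b : ℝ) (ha : 0 < a) (hN3 : ∀ x, a * ‖x‖ ≤ N x ∧ N x ≤ b * ‖x‖)
    (hAUC : ∀ t : ℝ, 0 < t → ∃ c : ℝ, 0 < c ∧ ∀ x, N x = 1 → ∃ F, Cof F ∧
      ∀ y ∈ F, N y = 1 → c ≤ N (x + t • y) - 1) : False := by
  have hab : a ≤ b := by
    have := hN3 x₀
    rw [hx₀] at this
    linarith [this.1, this.2]
  have hb : 0 < b := ha.trans_le hab
  set t₀ : ℝ := 2 * a / b with ht₀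
  have ht₀pos : 0 < t₀ := by positivity
  obtain ⟨c, hc, hcAUC⟩ := hAUC t₀ ht₀pos
  set q : ℝ := (1 + c) / (1 + c / 2) with hq
  have hqgt : 1 < q := by
    rw [hq, one_lt_div (by positivity)]
    linarith
  have hstep : ∀ x : X, ‖x‖ = 1 → ∃ xp : X, ‖xp‖ = 1 ∧ q * N x ≤ N xp := by
    intro x hx
    set n := N x with hn
    have hn1 : a ≤ n := by
      have := (hN3 x).1
      rwa [hx, mul_one] at this
    have hn2 : n ≤ b := by
      have := (hN3 x).2
      rwa [hx, mul_one] at this
    have hnpos : 0 < n := ha.trans_le hn1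
    set x' : X := n⁻¹ • x with hx'
    have hNx' : N x' = 1 := by
      rw [hx', hN2, abs_of_pos (inv_pos.mpr hnpos), inv_mul_cancel₀ hnpos.ne']
    obtain ⟨F, hFc, hF⟩ := hcAUC x' hNx'
    obtain ⟨y, hyF, hy1, hy2⟩ := hgame x hx F hFc (c / 2) (by positivity)
    obtain ⟨S, rfl⟩ := hCof F hFc
    set m := N y with hm
    have hm1 : a ≤ m := by
      have := (hN3 y).1
      rwa [hy1, mul_one] at this
    have hm2 : m ≤ b := by
      have := (hN3 y).2
      rwa [hy1, mul_one] at this
    have hmpos : 0 < m := ha.trans_le hm1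
    set y' : X := m⁻¹ • y with hy'
    have hNy' : N y' = 1 := by
      rw [hy', hN2, abs_of_pos (inv_pos.mpr hmpos), inv_mul_cancel₀ hmpos.ne']
    have hy'S : y' ∈ (S : Set X) := S.smul_mem _ hyF
    have h1 := hF y' hy'S hNy'
    set τ : ℝ := 2 * m / n with hτ
    have hτpos : 0 < τ := by positivity
    have hτt₀ : t₀ ≤ τ := by
      rw [hτ, ht₀]
      apply div_le_div₀ (by positivity) (by nlinarith) hnpos hn2
    have hdecomp : x + (2 : ℝ) • y = n • (x' + τ • y') := by
      rw [smul_add, hx', hy', smul_smul, smul_smul, smul_smul, mul_inv_cancel₀ hnpos.ne', one_smul]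
      congr 2
      rw [hτ]
      field_simp
    have hNdecomp : N (x + (2 : ℝ) • y) = n * N (x' + τ • y') := by
      rw [hdecomp, hN2, abs_of_pos hnpos]
    -- convexity
    set lam : ℝ := t₀ / τ with hlam
    have hlampos : 0 < lam := by positivity
    have hlam1 : lam ≤ 1 := by
      rw [hlam, div_le_one hτpos]; exact hτt₀
    have hconv : x' + t₀ • y' = (1 - lam) • x' + lam • (x' + τ • y') := by
      have hlt : lam * τ = t₀ := by
        rw [hlam]; field_simp
      have h' : lam • (τ • y') = t₀ • y' := by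
        rw [← mul_smul, hlt]
      rw [smul_add, h', sub_smul, one_smul]
      abel
    have h2 : N (x' + t₀ • y') ≤ (1 - lam) + lam * N (x' + τ • y') := by
      rw [hconv]
      refine (hN1 _ _).trans ?_
      rw [hN2 (1 - lam) x', hN2 lam (x' + τ • y'), abs_of_nonneg (by linarith),
        abs_of_pos hlampos, hNx', mul_one]
    have h3 : 1 + c ≤ N (x' + τ • y') := by
      by_contra hcon
      push Not at hcon
      have h4 : lam * N (x' + τ • y') ≤ lam * (1 + c) :=
        mul_le_mul_of_nonneg_left hcon.le hlampos.le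
      have h5 : lam * c ≤ 1 * c := mul_le_mul_of_nonneg_right hlam1 hc.le
      have h6 : lam * N (x' + τ • y') < lam * (1 + c) := mul_lt_mul_of_pos_left hcon hlampos
      nlinarith
    set v : X := x + (2 : ℝ) • y with hv
    have hNv : n * (1 + c) ≤ N v := by
      rw [hNdecomp]
      exact mul_le_mul_of_nonneg_left h3 hnpos.le
    have hvpos : 0 < ‖v‖ := by
      have h4 := (hN3 v).2
      have h5 : 0 < N v := by
        have : 0 < n * (1 + c) := by positivity
        linarith
      by_contra hcon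
      have h6 : ‖v‖ = 0 := le_antisymm (not_lt.mp hcon) (norm_nonneg _)
      rw [h6, mul_zero] at h4
      linarith
    refine ⟨‖v‖⁻¹ • v, ?_, ?_⟩
    · rw [norm_smul, norm_inv, norm_norm, inv_mul_cancel₀ hvpos.ne']
    · rw [hN2, abs_of_pos (inv_pos.mpr hvpos)]
      have h4 : ‖v‖⁻¹ * N v = N v / ‖v‖ := by rw [div_eq_inv_mul]
      rw [h4, le_div_iff₀ hvpos, hq]
      have h5 : (1 + c) / (1 + c / 2) * n * ‖v‖ ≤ (1 + c) / (1 + c / 2) * n * (1 + c / 2) := by
        apply mul_le_mul_of_nonneg_left hy2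
        positivity
      have h6 : (1 + c) / (1 + c / 2) * n * (1 + c / 2) = n * (1 + c) := by
        field_simp
      linarith
  have hiter : ∀ k : ℕ, ∃ x : X, ‖x‖ = 1 ∧ a * q ^ k ≤ N x := by
    intro k
    induction k with
    | zero =>
      refine ⟨x₀, hx₀, ?_⟩
      have := (hN3 x₀).1
      rw [hx₀, mul_one] at this
      simpa using this
    | succ k ih =>
      obtain ⟨x, hx, hx2⟩ := ih
      obtain ⟨xp, hxq, hxqt⟩ := hstep x hx
      refine ⟨xp, hxq, ?_⟩
      have hq0 : 0 < q := by linarith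
      calc a * q ^ (k + 1) = q * (a * q ^ k) := by ring
        _ ≤ q * N x := mul_le_mul_of_nonneg_left hx2 hq0.le
        _ ≤ N xp := hxqt
  obtain ⟨k, hk⟩ := pow_unbounded_of_one_lt (b / a) hqgt
  obtain ⟨x, hx, hx2⟩ := hiter k
  have h1 := (hN3 x).2
  rw [hx, mul_one] at h1
  have h2 : b < a * q ^ k := by
    rw [div_lt_iff₀ ha] at hk
    linarith
  linarith

end Crest.Agent.S0167Lib
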