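import Crest.Agent.S0167Lib.Spike

namespace Crest.Agent.S0167Lib

open MeasureTheory Crest.AnalysisR.L1Subspace

variable {Ω : Type} [MeasurableSpace Ω] {P : Measure Ω} [IsProbabilityMeasure P]
  {E : Submodule ℝ (Lp ℝ 1 P)}

/-- The sign of a real number, explicitly. -/
noncomputable def sgn (r : ℝ) : ℝ := if 0 < r then 1 else if r < 0 then -1 else 0

theorem sgn_abs_le (r : ℝ) : |sgn r| ≤ 1 := by
  unfold sgn
  split_ifs <;> simp

theorem real_sign_ineq {y g b : ℝ} (h : |y - g| ≤ b) : |y| - 2 * b ≤ y * sgn g := by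
  have hb : 0 ≤ b := (abs_nonneg _).trans h
  obtain ⟨h1, h2⟩ := abs_le.mp h
  unfold sgn
  split_ifs with h3 h4
  · rw [mul_one]
    rcases abs_cases y with ⟨h5, h6⟩ | ⟨h5, h6⟩ <;> rw [h5] <;> linarith
  · rcases abs_cases y with ⟨h5, h6⟩ | ⟨h5, h6⟩ <;> rw [h5] <;> linarith
  · have h7 : g = 0 := le_antisymm (not_lt.mp h3) (not_lt.mp h4)
    subst h7
    rw [mul_zero]
    rcases abs_cases y with ⟨h5, h6⟩ | ⟨h5, h6⟩ <;> rw [h5] <;> linarith

theorem measurable_sgn_comp {g : Ω → ℝ} (hg : Measurable g) : Measurable (fun z => sgn (g z)) := by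
  unfold sgn
  apply Measurable.ite (measurableSet_lt measurable_const hg) measurable_const
  apply Measurable.ite (measurableSet_lt hg measurable_const) measurable_const measurable_const

/-- pairing with the sign of `g`, as an integrable function. -/
theorem integrable_pair (g y : Lp ℝ 1 P) :
    Integrable (fun z => (y : Ω → ℝ) z * sgn ((g : Ω → ℝ) z)) P := by
  apply Integrable.mul_bdd (c := 1) (L1.integrable_coeFn y)
  · exact (measurable_sgn_comp (Lp.stronglyMeasurable g).measurable).aestronglyMeasurable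
  · filter_upwards with z
    exact sgn_abs_le _

/-- The functional `y ↦ ∫ y · sgn g`. -/
noncomputable def pairL (g : Lp ℝ 1 P) : Lp ℝ 1 P →L[ℝ] ℝ :=
  LinearMap.mkContinuous
    { toFun := fun y => ∫ z, (y : Ω → ℝ) z * sgn ((g : Ω → ℝ) z) ∂P
      map_add' := by
        intro y y'
        rw [← integral_add (integrable_pair g y) (integrable_pair g y')]
        apply integral_congr_ae
        filter_upwards [Lp.coeFn_add y y'] with z hz
        rw [hz, Pi.add_apply]
        ring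
      map_smul' := by
        intro c y
        simp only [RingHom.id_apply, smul_eq_mul]
        rw [← integral_const_mul]
        apply integral_congr_ae
        filter_upwards [Lp.coeFn_smul c y] with z hz
        rw [hz, Pi.smul_apply, smul_eq_mul]
        ring }
    1
    (by
      intro y
      simp only [LinearMap.coe_mk, AddHom.coe_mk, one_mul]
      rw [L1.norm_eq_integral_norm]
      refine (norm_integral_le_integral_norm _).trans ?_
      apply integral_mono (integrable_pair g y).norm (L1.integrable_coeFn y).norm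
      intro z
      simp only [norm_mul]
      have h1 : ‖sgn ((g : Ω → ℝ) z)‖ ≤ 1 := sgn_abs_le _
      have h2 := norm_nonneg ((y : Ω → ℝ) z)
      nlinarith)

theorem pairL_apply (g y : Lp ℝ 1 P) :
    pairL g y = ∫ z, (y : Ω → ℝ) z * sgn ((g : Ω → ℝ) z) ∂P := rfl

/-- If `y` is orthogonal to `sgn g`, then half of the mass of `y` sits where `y` and `g` are far. -/
theorem half_mass (y g : Lp ℝ 1 P) {b : ℝ} (hb : 0 ≤ b) (h0 : pairL g y = 0) (hnorm : ‖y‖ = 1) :
    1 / 2 - b ≤ nu P {z | b < |(y : Ω → ℝ) z - (g : Ω → ℝ) z|} y := by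
  set A := {z | b < |(y : Ω → ℝ) z - (g : Ω → ℝ) z|} with hA
  have hAm : MeasurableSet A := measurableSet_far y g b
  have hsplit := integral_add_compl hAm (integrable_pair g y)
  rw [pairL_apply] at h0
  rw [h0] at hsplit
  have h1 : -nu P A y ≤ ∫ z in A, (y : Ω → ℝ) z * sgn ((g : Ω → ℝ) z) ∂P := by
    rw [nu, ← integral_neg]
    apply setIntegral_mono_on (integrable_abs_coe y).neg.integrableOn
      (integrable_pair g y).integrableOn hAm
    intro z _
    have h3 := sgn_abs_le ((g : Ω → ℝ) z)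
    have h4 : |(y : Ω → ℝ) z * sgn ((g : Ω → ℝ) z)| ≤ |(y : Ω → ℝ) z| := by
      rw [abs_mul]
      nlinarith [abs_nonneg ((y : Ω → ℝ) z)]
    exact (neg_abs_le _).trans' (neg_le_neg h4)
  have h2 : nu P Aᶜ y - 2 * b ≤ ∫ z in Aᶜ, (y : Ω → ℝ) z * sgn ((g : Ω → ℝ) z) ∂P := by
    have h5 : ∫ z in Aᶜ, (|(y : Ω → ℝ) z| - 2 * b) ∂P ≤
        ∫ z in Aᶜ, (y : Ω → ℝ) z * sgn ((g : Ω → ℝ) z) ∂P := by
      apply setIntegral_mono_on
        ((integrable_abs_coe y).integrableOn.sub (integrableOn_const (by simp)))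
        (integrable_pair g y).integrableOn hAm.compl
      intro z hz
      simp only [hA, Set.mem_compl_iff, Set.mem_ofPred_eq, not_lt] at hz
      exact real_sign_ineq hz
    rw [integral_sub (integrable_abs_coe y).integrableOn (integrableOn_const (by simp))] at h5
    simp only [integral_const, smul_eq_mul] at h5
    have h6 : (P.restrict Aᶜ).real Set.univ ≤ 1 := by
      rw [measureReal_def, Measure.restrict_apply MeasurableSet.univ, Set.univ_inter]
      exact measureReal_le_one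
    have h7 : (P.restrict Aᶜ).real Set.univ * (2 * b) ≤ 1 * (2 * b) :=
      mul_le_mul_of_nonneg_right h6 (by positivity)
    have h8 : nu P Aᶜ y = ∫ z in Aᶜ, |(y : Ω → ℝ) z| ∂P := rfl
    rw [h8]
    linarith
  have h3 := nu_add_compl hAm y
  rw [hnorm] at h3
  linarith

/-- Lower bound for the averaged quantity. -/
theorem midpoint_lower (htb : UnitBallTotallyBoundedInMeasure P E) (x : E) (hx : ‖x‖ = 1)
    {t : ℝ} (ht : 0 < t) {η : ℝ} (hη : 0 < η) :
    ∃ S : Submodule ℝ E, IsClosed (S : Set E) ∧ FiniteDimensional ℝ (E ⧸ S) ∧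
      ∀ y ∈ S, ‖y‖ = 1 → 1 + t / 2 - η ≤ (‖x + t • y‖ + ‖x - t • y‖) / 2 := by
  classical
  obtain ⟨a₀, ha₀, ha₀2⟩ := exists_pos_nu_le (x : Lp ℝ 1 P) (half_pos hη)
  set a : ℝ := min a₀ (η / (2 * t)) with ha
  have hapos : 0 < a := lt_min ha₀ (by positivity)
  have ha1 : a ≤ a₀ := min_le_left _ _
  have ha2 : a ≤ η / (2 * t) := min_le_right _ _
  have ha3 : 2 * t * a ≤ η := by
    have := (le_div_iff₀ (by positivity : 0 < 2 * t)).mp ha2
    linarith
  obtain ⟨G, hG1, hG2⟩ := htb a hapos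
  let Φ : E →L[ℝ] (G → ℝ) :=
    ContinuousLinearMap.pi (fun g : G => (pairL (g : Lp ℝ 1 P)).comp E.subtypeL)
  refine ⟨LinearMap.ker (Φ : E →ₗ[ℝ] (G → ℝ)), Φ.isClosed_ker, ?_, ?_⟩
  · exact finiteDimensional_quot_of_eq_ker (Φ : E →ₗ[ℝ] (G → ℝ)) _ rfl
  · intro y hy hynorm
    have hyP : ‖(y : Lp ℝ 1 P)‖ = 1 := hynorm
    obtain ⟨g, hgG, hgd⟩ := hG2 (y : Lp ℝ 1 P) y.2 hynorm.le
    obtain ⟨b, hb0, hba, hbP⟩ := exists_of_measureDist_lt (y : Lp ℝ 1 P) g hgd
    have h0 : pairL g (y : Lp ℝ 1 P) = 0 := by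
      have h1 : Φ y = 0 := hy
      have h2 := congrFun h1 ⟨g, hgG⟩
      simpa [Φ] using h2
    have hhalf := half_mass (y : Lp ℝ 1 P) g hb0.le h0 hyP
    set A := {z | b < |((y : Lp ℝ 1 P) : Ω → ℝ) z - (g : Ω → ℝ) z|} with hA
    have hAm : MeasurableSet A := measurableSet_far _ g b
    have hAx : nu P A (x : Lp ℝ 1 P) ≤ η / 2 := by
      apply ha₀2
      refine hbP.trans_le (ENNReal.ofReal_le_ofReal ?_)
      linarith
    have hmain := norm_add_add_norm_sub_ge hAm (x : Lp ℝ 1 P) (y : Lp ℝ 1 P) t ht.le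
    have h3 := nu_add_compl hAm (x : Lp ℝ 1 P)
    have hxP : ‖(x : Lp ℝ 1 P)‖ = 1 := hx
    rw [hxP] at h3
    have h4 : ‖x + t • y‖ = ‖(x : Lp ℝ 1 P) + t • (y : Lp ℝ 1 P)‖ := rfl
    have h5 : ‖x - t • y‖ = ‖(x : Lp ℝ 1 P) - t • (y : Lp ℝ 1 P)‖ := rfl
    rw [h4, h5]
    have h6 : t * b ≤ t * a := mul_le_mul_of_nonneg_left hba.le ht.le
    have h7 : 2 * t * (1 / 2 - b) ≤ 2 * t * nu P A (y : Lp ℝ 1 P) :=
      mul_le_mul_of_nonneg_left hhalf (by positivity)
    nlinarith

/-- Lower bound for the one-sided quantity. -/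
theorem oneSided_lower (x : E) (hx : ‖x‖ = 1) {t : ℝ} (ht : 0 < t) :
    ∃ S : Submodule ℝ E, IsClosed (S : Set E) ∧ FiniteDimensional ℝ (E ⧸ S) ∧
      ∀ y ∈ S, ‖y‖ = 1 → max 0 (t - 2) ≤ ‖x + t • y‖ - 1 := by
  obtain ⟨θ, hθn, hθx⟩ := exists_dual_vector'' ℝ x
  simp only [RCLike.ofReal_real_eq_id, id] at hθx
  refine ⟨LinearMap.ker (θ : E →ₗ[ℝ] ℝ), θ.isClosed_ker, ?_, ?_⟩
  · exact finiteDimensional_quot_of_eq_ker (θ : E →ₗ[ℝ] ℝ) _ rfl
  · intro y hy hynorm
    apply max_le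
    · have h1 : θ y = 0 := hy
      have h2 : θ (x + t • y) = 1 := by
        rw [map_add, map_smul, h1, hθx, hx]; simp
      have h3 : θ (x + t • y) ≤ ‖x + t • y‖ := by
        have h8 := θ.le_opNorm (x + t • y)
        have h9 : θ (x + t • y) ≤ ‖θ (x + t • y)‖ := le_abs_self _
        have h10 : ‖θ‖ * ‖x + t • y‖ ≤ 1 * ‖x + t • y‖ :=
          mul_le_mul_of_nonneg_right hθn (norm_nonneg _)
        linarith
      linarith
    · have h1 : ‖t • y‖ ≤ ‖x + t • y‖ + ‖x‖ := by
        have := norm_sub_le (x + t • y) x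
        simpa using this
      rw [norm_smul, hynorm, hx, Real.norm_eq_abs, abs_of_pos ht, mul_one] at h1
      linarith

/-- Lower bound by the triangle inequality. -/
theorem midpoint_triangle (x y : E) (hy : ‖y‖ = 1) {t : ℝ} (ht : 0 < t) :
    t ≤ (‖x + t • y‖ + ‖x - t • y‖) / 2 := by
  have h1 : ‖(2 : ℝ) • (t • y)‖ ≤ ‖x + t • y‖ + ‖x - t • y‖ := by
    have := norm_sub_le (x + t • y) (x - t • y)
    have heq : x + t • y - (x - t • y) = (2 : ℝ) • (t • y) := by
      rw [two_smul]; abel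
    rwa [heq] at this
  rw [norm_smul, norm_smul, hy, Real.norm_eq_abs, Real.norm_eq_abs, abs_of_pos ht,
    abs_of_pos two_pos, mul_one] at h1
  linarith

end Crest.Agent.S0167Lib
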