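import Crest.Agent.S0167Lib.Spike

namespace Crest.Agent.S0167Lib

open MeasureTheory Crest.AnalysisR.L1Subspace

variable {Ω : Type} [MeasurableSpace Ω] {P : Measure Ω} [IsProbabilityMeasure P]
  {E : Submodule ℝ (Lp ℝ 1 P)}

/-- The basic test vector for the upper bounds. -/
theorem exists_y (htb : UnitBallTotallyBoundedInMeasure P E) (hD : HasDaugavetProperty E)
    (hinf : ¬ FiniteDimensional ℝ E) (S : Submodule ℝ E) (hS : IsClosed (S : Set E))
    (hfin : FiniteDimensional ℝ (E ⧸ S)) (x : E) (hx : ‖x‖ = 1) {t : ℝ} (ht : 0 < t)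
    {η : ℝ} (hη : 0 < η) {c : ℝ} (hc0 : 0 ≤ c) (hc1 : c < 1 / 2) :
    ∃ y : E, y ∈ S ∧ ‖y‖ = 1 ∧ ‖x + t • y‖ ≤ |1 - t * c| + t * (1 - c) + η ∧
      ‖x - t • y‖ ≤ 1 + t * c + t * (1 - c) + η := by
  have hc2 : 0 < 1 - c := by linarith
  set ρ : ℝ := c / (1 - c) with hρ
  have hρ0 : 0 ≤ ρ := div_nonneg hc0 hc2.le
  have hρ1 : ρ < 1 := by
    rw [hρ, div_lt_one hc2]; linarith
  have hρc : (1 - c) * ρ = c := by
    rw [hρ]; field_simp
  set z : E := ρ • x with hz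
  have hznorm : ‖z‖ < 1 := by
    rw [hz, norm_smul, hx, mul_one, Real.norm_eq_abs, abs_of_nonneg hρ0]; exact hρ1
  set η₁ : ℝ := min (1 / 4) (η / (3 * t)) with hη₁
  have hη₁pos : 0 < η₁ := lt_min (by norm_num) (by positivity)
  have hη₁1 : η₁ ≤ 1 / 4 := min_le_left _ _
  have hη₁2 : η₁ ≤ η / (3 * t) := min_le_right _ _
  have hη₁3 : 3 * t * η₁ ≤ η := by
    have := (le_div_iff₀ (by positivity : 0 < 3 * t)).mp hη₁2
    linarith
  obtain ⟨w, hwS, hwn, hwl, A, hA, hAx, hAw⟩ := key_lemma htb hD hinf S hS hfin x z hznorm hη₁pos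
  set y₀ : E := (-c) • x + (1 - c) • w with hy₀
  have hy₀S : y₀ ∈ S := by
    have h1 : y₀ = (1 - c) • (w - z) := by
      rw [hy₀, hz, smul_sub, smul_smul, hρc, neg_smul]
      abel
    rw [h1]
    exact S.smul_mem _ hwS
  have hy₀up : ‖y₀‖ ≤ 1 := by
    calc ‖y₀‖ ≤ ‖(-c) • x‖ + ‖(1 - c) • w‖ := norm_add_le _ _
      _ = c * ‖x‖ + (1 - c) * ‖w‖ := by
          rw [norm_smul, norm_smul, Real.norm_eq_abs, Real.norm_eq_abs, abs_neg, abs_of_nonneg hc0,
            abs_of_pos hc2]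
      _ ≤ c * 1 + (1 - c) * 1 := by
          rw [hx]
          exact add_le_add le_rfl (mul_le_mul_of_nonneg_left hwn hc2.le)
      _ = 1 := by ring
  have hy₀lo : 1 - 3 * η₁ ≤ ‖y₀‖ := by
    have h1 := norm_add_ge hA (x : Lp ℝ 1 P) (w : Lp ℝ 1 P) (-c) (1 - c)
    have h2 : ‖(-c) • (x : Lp ℝ 1 P) + (1 - c) • (w : Lp ℝ 1 P)‖ = ‖y₀‖ := rfl
    rw [h2, abs_neg, abs_of_nonneg hc0, abs_of_pos hc2] at h1
    have hxnorm : ‖(x : Lp ℝ 1 P)‖ = 1 := hx
    have hwnorm : ‖(w : Lp ℝ 1 P)‖ = ‖w‖ := rfl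
    rw [hxnorm, hwnorm] at h1
    have h3 : c * (1 - 3 * η₁) ≤ c * (1 - 2 * nu P A (x : Lp ℝ 1 P)) := by
      apply mul_le_mul_of_nonneg_left _ hc0
      nlinarith
    have h4 : (1 - c) * (1 - 3 * η₁) ≤ (1 - c) * (‖w‖ - 2 * nu P Aᶜ (w : Lp ℝ 1 P)) := by
      apply mul_le_mul_of_nonneg_left _ hc2.le
      linarith
    nlinarith
  have hy₀pos : 0 < ‖y₀‖ := by linarith
  set y : E := ‖y₀‖⁻¹ • y₀ with hy
  have hyS : y ∈ S := S.smul_mem _ hy₀S
  have hynorm : ‖y‖ = 1 := by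
    rw [hy, norm_smul, norm_inv, norm_norm, inv_mul_cancel₀ hy₀pos.ne']
  have hdiff : ‖t • y - t • y₀‖ ≤ η := by
    have h1 : t • y - t • y₀ = (t * (‖y₀‖⁻¹ - 1)) • y₀ := by
      rw [hy, smul_smul, ← sub_smul]
      congr 1
      ring
    rw [h1, norm_smul, Real.norm_eq_abs, abs_mul, abs_of_pos ht, mul_assoc]
    have h2 : 0 ≤ ‖y₀‖⁻¹ - 1 := by
      have := (one_le_inv₀ hy₀pos).mpr hy₀up
      linarith
    rw [abs_of_nonneg h2]
    have h3 : (‖y₀‖⁻¹ - 1) * ‖y₀‖ = 1 - ‖y₀‖ := by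
      field_simp
    rw [h3]
    nlinarith
  refine ⟨y, hyS, hynorm, ?_, ?_⟩
  · have h1 : x + t • y₀ = (1 - t * c) • x + (t * (1 - c)) • w := by
      rw [hy₀, smul_add, smul_smul, smul_smul, sub_smul, one_smul, mul_neg, neg_smul, sub_eq_add_neg]
      abel
    have h2 : ‖x + t • y₀‖ ≤ |1 - t * c| + t * (1 - c) := by
      rw [h1]
      calc ‖(1 - t * c) • x + (t * (1 - c)) • w‖ ≤ ‖(1 - t * c) • x‖ + ‖(t * (1 - c)) • w‖ :=
            norm_add_le _ _
        _ = |1 - t * c| * ‖x‖ + (t * (1 - c)) * ‖w‖ := by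
            rw [norm_smul, norm_smul, Real.norm_eq_abs, Real.norm_eq_abs,
              abs_of_pos (mul_pos ht hc2)]
        _ ≤ |1 - t * c| * 1 + (t * (1 - c)) * 1 := by
            rw [hx]
            exact add_le_add le_rfl (mul_le_mul_of_nonneg_left hwn (mul_pos ht hc2).le)
        _ = _ := by ring
    have h3 : ‖x + t • y‖ ≤ ‖x + t • y₀‖ + ‖t • y - t • y₀‖ := by
      have : x + t • y = (x + t • y₀) + (t • y - t • y₀) := by abel
      rw [this]
      exact norm_add_le _ _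
    linarith
  · have h1 : x - t • y₀ = (1 + t * c) • x + (-(t * (1 - c))) • w := by
      rw [hy₀, smul_add, smul_smul, smul_smul, add_smul, one_smul, mul_neg, neg_smul, neg_smul]
      abel
    have h2 : ‖x - t • y₀‖ ≤ 1 + t * c + t * (1 - c) := by
      rw [h1]
      calc ‖(1 + t * c) • x + (-(t * (1 - c))) • w‖ ≤ ‖(1 + t * c) • x‖ + ‖(-(t * (1 - c))) • w‖ :=
            norm_add_le _ _
        _ = (1 + t * c) * ‖x‖ + (t * (1 - c)) * ‖w‖ := by
            rw [norm_smul, norm_smul, Real.norm_eq_abs, Real.norm_eq_abs, abs_neg,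
              abs_of_pos (mul_pos ht hc2), abs_of_nonneg (by positivity)]
        _ ≤ (1 + t * c) * 1 + (t * (1 - c)) * 1 := by
            rw [hx]
            exact add_le_add le_rfl (mul_le_mul_of_nonneg_left hwn (mul_pos ht hc2).le)
        _ = _ := by ring
    have h3 : ‖x - t • y‖ ≤ ‖x - t • y₀‖ + ‖t • y - t • y₀‖ := by
      have : x - t • y = (x - t • y₀) - (t • y - t • y₀) := by abel
      rw [this]
      exact norm_sub_le _ _
    linarith

/-- Upper bound for the one-sided quantity. -/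
theorem oneSided_upper (htb : UnitBallTotallyBoundedInMeasure P E) (hD : HasDaugavetProperty E)
    (hinf : ¬ FiniteDimensional ℝ E) (S : Submodule ℝ E) (hS : IsClosed (S : Set E))
    (hfin : FiniteDimensional ℝ (E ⧸ S)) (x : E) (hx : ‖x‖ = 1) {t : ℝ} (ht : 0 < t)
    {η : ℝ} (hη : 0 < η) :
    ∃ y : E, y ∈ S ∧ ‖y‖ = 1 ∧ ‖x + t • y‖ - 1 ≤ max 0 (t - 2) + η := by
  set κ : ℝ := min (1 / 2) (η / 4) with hκ
  have hκpos : 0 < κ := lt_min (by norm_num) (by positivity)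
  have hκ1 : κ ≤ 1 / 2 := min_le_left _ _
  have hκ2 : κ ≤ η / 4 := min_le_right _ _
  rcases le_or_gt 2 t with h2t | ht2
  · -- `t ≥ 2`, `c = (1 - κ) / t`
    set c : ℝ := (1 - κ) / t with hc
    have hcpos : 0 ≤ c := div_nonneg (by linarith) ht.le
    have hc1 : c < 1 / 2 := by
      rw [hc, div_lt_iff₀ ht]; nlinarith
    have htc : t * c = 1 - κ := by
      rw [hc]; field_simp
    obtain ⟨y, hyS, hy1, hy2, _⟩ := exists_y htb hD hinf S hS hfin x hx ht (η := η / 2)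
      (by positivity) hcpos hc1
    refine ⟨y, hyS, hy1, ?_⟩
    have h3 : |1 - t * c| = κ := by
      rw [htc]; rw [show 1 - (1 - κ) = κ by ring]; exact abs_of_pos hκpos
    have h4 : t * (1 - c) = t - (1 - κ) := by rw [mul_sub, mul_one, htc]
    rw [h3, h4] at hy2
    have h5 : t - 2 ≤ max 0 (t - 2) := le_max_right _ _
    linarith
  · -- `t < 2`, `c = (1 - κ) / 2`
    set c : ℝ := (1 - κ) / 2 with hc
    have hcpos : 0 ≤ c := div_nonneg (by linarith) (by norm_num)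
    have hc1 : c < 1 / 2 := by
      rw [hc]; linarith
    obtain ⟨y, hyS, hy1, hy2, _⟩ := exists_y htb hD hinf S hS hfin x hx ht (η := η / 2)
      (by positivity) hcpos hc1
    refine ⟨y, hyS, hy1, ?_⟩
    have h3 : 0 ≤ 1 - t * c := by
      rw [hc]; nlinarith
    rw [abs_of_nonneg h3] at hy2
    have h5 : (0 : ℝ) ≤ max 0 (t - 2) := le_max_left _ _
    have h6 : t * κ ≤ 2 * κ := mul_le_mul_of_nonneg_right ht2.le hκpos.le
    have h7 : 1 - t * c + t * (1 - c) = 1 + t * κ := by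
      rw [hc]; ring
    linarith

/-- Upper bound for the averaged quantity. -/
theorem midpoint_upper (htb : UnitBallTotallyBoundedInMeasure P E) (hD : HasDaugavetProperty E)
    (hinf : ¬ FiniteDimensional ℝ E) (S : Submodule ℝ E) (hS : IsClosed (S : Set E))
    (hfin : FiniteDimensional ℝ (E ⧸ S)) (x : E) (hx : ‖x‖ = 1) {t : ℝ} (ht : 0 < t)
    {η : ℝ} (hη : 0 < η) :
    ∃ y : E, y ∈ S ∧ ‖y‖ = 1 ∧ (‖x + t • y‖ + ‖x - t • y‖) / 2 - 1 ≤ max (t / 2) (t - 1) + η := by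
  set κ : ℝ := min (1 / 2) (η / t) with hκ
  have hκpos : 0 < κ := lt_min (by norm_num) (by positivity)
  have hκ1 : κ ≤ 1 / 2 := min_le_left _ _
  have hκ2 : κ ≤ η / t := min_le_right _ _
  have hκ3 : t * κ ≤ η := by
    have := (le_div_iff₀ ht).mp hκ2
    linarith
  set c : ℝ := (1 - κ) / 2 with hc
  have hcpos : 0 ≤ c := div_nonneg (by linarith) (by norm_num)
  have hc1 : c < 1 / 2 := by
    rw [hc]; linarith
  obtain ⟨y, hyS, hy1, hy2, hy3⟩ := exists_y htb hD hinf S hS hfin x hx ht (η := η / 2)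
    (by positivity) hcpos hc1
  refine ⟨y, hyS, hy1, ?_⟩
  have h5 : t / 2 ≤ max (t / 2) (t - 1) := le_max_left _ _
  have h6 : t - 1 ≤ max (t / 2) (t - 1) := le_max_right _ _
  have h7 : t * (1 - c) = t / 2 + t * κ / 2 := by
    rw [hc]; ring
  rcases le_or_gt (t * c) 1 with h8 | h8
  · rw [abs_of_nonneg (by linarith)] at hy2
    nlinarith
  · rw [abs_of_neg (by linarith)] at hy2
    nlinarith

end Crest.Agent.S0167Lib
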