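import Mathlib

/-!
Finite-dimensional hull lemma: if a set `T` norms every functional, then every `z` in the open
unit ball is, modulo a closed finite-codimensional subspace `S`, a convex combination of at most
`dim (V/S) + 1` points of `T`.
-/

namespace Crest.Agent.S0167Lib

variable {V : Type*} [NormedAddCommGroup V] [NormedSpace ℝ V]

theorem mem_hull_mod (T : Set V) (hTne : T.Nonempty)
    (hT : ∀ f : V →L[ℝ] ℝ, f ≠ 0 → ∀ δ : ℝ, 0 < δ → ∃ s ∈ T, ‖f‖ - δ < f s)
    (S : Submodule ℝ V) (hS : IsClosed (S : Set V)) [hfin : FiniteDimensional ℝ (V ⧸ S)]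
    (z : V) (hz : ‖z‖ < 1) :
    ∃ (n : ℕ) (s : Fin n → V) (w : Fin n → ℝ), n ≤ Module.finrank ℝ (V ⧸ S) + 1 ∧
      (∀ i, s i ∈ T) ∧ (∀ i, 0 < w i) ∧ ∑ i, w i = 1 ∧ (∑ i, w i • s i) - z ∈ S := by
  classical
  have hS' : IsClosed (S : Set V) := hS
  -- the quotient map as a continuous linear map
  let π : V →L[ℝ] (V ⧸ S) := S.mkQL
  have hπ : ∀ v, π v = S.mkQ v := fun _ => rfl
  set C : Set (V ⧸ S) := convexHull ℝ (π '' T) with hC
  have hCconv : Convex ℝ C := convex_convexHull _ _
  set U : Set (V ⧸ S) := π '' Metric.ball (0 : V) 1 with hU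
  have hUopen : IsOpen U := by
    have : IsOpenMap π := S.isOpenMap_mkQ
    exact this _ Metric.isOpen_ball
  have hUsub : U ⊆ closure C := by
    rintro _ ⟨u, hu, rfl⟩
    by_contra hcon
    obtain ⟨g, r, hg1, hg2⟩ := geometric_hahn_banach_point_closed
      hCconv.closure isClosed_closure hcon
    -- pull back the functional
    set f : V →L[ℝ] ℝ := (-g).comp π with hf
    have hfT : ∀ s ∈ T, f s < -r := by
      intro s hs
      have : π s ∈ closure C := subset_closure (subset_convexHull ℝ _ ⟨s, hs, rfl⟩)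
      have h2 := hg2 _ this
      simp only [hf, ContinuousLinearMap.comp_apply, ContinuousLinearMap.neg_apply]
      linarith
    have hfu : -r < f u := by
      simp only [hf, ContinuousLinearMap.comp_apply, ContinuousLinearMap.neg_apply]
      linarith
    have hu' : ‖u‖ < 1 := by simpa using hu
    by_cases hf0 : f = 0
    · obtain ⟨s, hs⟩ := hTne
      have h1 := hfT s hs
      rw [hf0] at h1 hfu
      simp only [ContinuousLinearMap.zero_apply] at h1 hfu
      linarith
    · have hfpos : 0 < ‖f‖ := norm_pos_iff.mpr hf0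
      obtain ⟨s, hs, hs2⟩ := hT f hf0 (‖f‖ * (1 - ‖u‖)) (by
        apply mul_pos hfpos; linarith)
      have h1 := hfT s hs
      have h2 : f u ≤ ‖f‖ * ‖u‖ := (le_abs_self _).trans (f.le_opNorm u)
      nlinarith
  -- `z` lands in the hull
  have h0U : π z ∈ U := ⟨z, by simpa using hz, rfl⟩
  have hzC : π z ∈ C := by
    have hclconv : Convex ℝ (closure C) := hCconv.closure
    have hint : (interior (closure C)).Nonempty :=
      ⟨π z, mem_interior.mpr ⟨U, hUsub, hUopen, h0U⟩⟩
    have haff : affineSpan ℝ (closure C) = ⊤ := by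
      apply affineSpan_eq_top_of_nonempty_interior
      rw [hclconv.convexHull_eq]
      exact hint
    have haff2 : affineSpan ℝ C = ⊤ := by
      rw [eq_top_iff, ← haff]
      apply affineSpan_le.mpr
      have hclosed : IsClosed ((affineSpan ℝ C : AffineSubspace ℝ (V ⧸ S)) : Set (V ⧸ S)) :=
        AffineSubspace.closed_of_finiteDimensional _
      exact hclosed.closure_subset_iff.mpr (subset_affineSpan ℝ C)
    have hint2 : (interior C).Nonempty :=
      (hCconv.interior_nonempty_iff_affineSpan_eq_top).mpr haff2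
    have heq := hCconv.interior_closure_eq_interior_of_nonempty_interior hint2
    have : π z ∈ interior (closure C) := mem_interior.mpr ⟨U, hUsub, hUopen, h0U⟩
    rw [heq] at this
    exact interior_subset this
  -- Caratheodory
  obtain ⟨ι, hι, z', w, hrange, hind, hpos, hsum, hcomb⟩ :=
    eq_pos_convex_span_of_mem_convexHull hzC
  have hcard : Fintype.card ι ≤ Module.finrank ℝ (V ⧸ S) + 1 := by
    have h1 := hind.card_le_finrank_succ
    have h2 := Submodule.finrank_le (vectorSpan ℝ (Set.range z'))
    omega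
  have hlift : ∀ i, ∃ s ∈ T, π s = z' i := by
    intro i
    have := hrange ⟨i, rfl⟩
    obtain ⟨s, hs, hs2⟩ := this
    exact ⟨s, hs, hs2⟩
  choose s hsT hsπ using hlift
  let e := Fintype.equivFin ι
  refine ⟨Fintype.card ι, fun i => s (e.symm i), fun i => w (e.symm i), hcard, ?_, ?_, ?_, ?_⟩
  · intro i; exact hsT _
  · intro i; exact hpos _
  · rw [← hsum]
    exact Equiv.sum_comp e.symm w
  · have hsumeq : (∑ i, w (e.symm i) • s (e.symm i)) = ∑ i, w i • s i :=
      Equiv.sum_comp e.symm (fun i => w i • s i)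
    rw [hsumeq]
    have : S.mkQ (∑ i, w i • s i) = S.mkQ z := by
      have h1 : S.mkQ (∑ i, w i • s i) = ∑ i, w i • z' i := by
        rw [map_sum]
        apply Finset.sum_congr rfl
        intro i _
        rw [map_smul, ← hsπ i]
        rfl
      rw [h1, hcomb]
      rfl
    exact (Submodule.Quotient.eq S).mp this

end Crest.Agent.S0167Lib
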