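import Mathlib
import Crest.Prelude.Def_DaugavetL1

/-!
Seminorms `∫_B |f|` on `L¹` of a probability space and concentration of elements.
-/

namespace Crest.Agent.S0167Lib

open MeasureTheory

variable {Ω : Type} [MeasurableSpace Ω] {P : Measure Ω}

/-- The seminorm `f ↦ ∫_B |f|` on `L¹`. -/
noncomputable def nu (P : Measure Ω) (B : Set Ω) (f : Lp ℝ 1 P) : ℝ := ∫ z in B, |(f : Ω → ℝ) z| ∂P

theorem integrable_abs_coe (f : Lp ℝ 1 P) : Integrable (fun z => |(f : Ω → ℝ) z|) P :=
  (L1.integrable_coeFn f).abs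

theorem nu_nonneg (B : Set Ω) (f : Lp ℝ 1 P) : 0 ≤ nu P B f :=
  integral_nonneg (fun _ => abs_nonneg _)

theorem nu_congr (B : Set Ω) {f : Lp ℝ 1 P} {g : Ω → ℝ} (h : (f : Ω → ℝ) =ᵐ[P] g) :
    nu P B f = ∫ z in B, |g z| ∂P := by
  apply integral_congr_ae
  apply ae_restrict_of_ae
  filter_upwards [h] with z hz
  rw [hz]

theorem nu_add_le (B : Set Ω) (f g : Lp ℝ 1 P) : nu P B (f + g) ≤ nu P B f + nu P B g := by
  rw [nu_congr B (Lp.coeFn_add f g), nu, nu,
    ← integral_add (integrable_abs_coe f).integrableOn (integrable_abs_coe g).integrableOn]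
  have hint : Integrable (fun z => |((f : Ω → ℝ) + (g : Ω → ℝ)) z|) P :=
    ((L1.integrable_coeFn f).add (L1.integrable_coeFn g)).abs
  apply integral_mono hint.integrableOn
    ((integrable_abs_coe f).integrableOn.add (integrable_abs_coe g).integrableOn)
  intro z
  exact abs_add_le _ _

theorem nu_smul (B : Set Ω) (c : ℝ) (f : Lp ℝ 1 P) : nu P B (c • f) = |c| * nu P B f := by
  rw [nu_congr B (Lp.coeFn_smul c f), nu, ← integral_const_mul]
  apply integral_congr_ae
  filter_upwards with z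
  simp [abs_mul]

theorem nu_neg (B : Set Ω) (f : Lp ℝ 1 P) : nu P B (-f) = nu P B f := by
  have : -f = (-1 : ℝ) • f := by simp
  rw [this, nu_smul]; simp

theorem nu_sub_le (B : Set Ω) (f g : Lp ℝ 1 P) : nu P B (f - g) ≤ nu P B f + nu P B g := by
  rw [sub_eq_add_neg]
  calc nu P B (f + -g) ≤ nu P B f + nu P B (-g) := nu_add_le B f (-g)
    _ = nu P B f + nu P B g := by rw [nu_neg]

theorem nu_sum_le {ι : Type*} (s : Finset ι) (B : Set Ω) (w : ι → ℝ) (f : ι → Lp ℝ 1 P)
    (hw : ∀ i ∈ s, 0 ≤ w i) :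
    nu P B (∑ i ∈ s, w i • f i) ≤ ∑ i ∈ s, w i * nu P B (f i) := by
  classical
  induction s using Finset.induction_on with
  | empty =>
    simp only [Finset.sum_empty]
    have : nu P B (0 : Lp ℝ 1 P) = 0 := by
      have h := nu_smul B 0 (0 : Lp ℝ 1 P)
      simpa using h
    rw [this]
  | insert a s ha ih =>
    rw [Finset.sum_insert ha, Finset.sum_insert ha]
    refine (nu_add_le B _ _).trans ?_
    rw [nu_smul, abs_of_nonneg (hw a (Finset.mem_insert_self _ _))]
    have := ih (fun i hi => hw i (Finset.mem_insert_of_mem hi))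
    linarith

theorem nu_mono {B C : Set Ω} (h : B ⊆ C) (f : Lp ℝ 1 P) : nu P B f ≤ nu P C f := by
  apply setIntegral_mono_set (integrable_abs_coe f).integrableOn
  · filter_upwards with z
    exact abs_nonneg _
  · exact Filter.Eventually.of_forall h

theorem nu_univ (f : Lp ℝ 1 P) : nu P Set.univ f = ‖f‖ := by
  rw [L1.norm_eq_integral_norm, nu, setIntegral_univ]
  rfl

theorem nu_add_compl {B : Set Ω} (hB : MeasurableSet B) (f : Lp ℝ 1 P) :
    nu P B f + nu P Bᶜ f = ‖f‖ := by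
  rw [← nu_univ, nu, nu, integral_add_compl hB (integrable_abs_coe f), nu, setIntegral_univ]

theorem nu_le_norm (B : Set Ω) (f : Lp ℝ 1 P) : nu P B f ≤ ‖f‖ := by
  rw [← nu_univ]; exact nu_mono (Set.subset_univ _) f

/-- near additivity: if `x` has little mass on `A` and `w` has little mass off `A`. -/
theorem norm_add_ge {A : Set Ω} (hA : MeasurableSet A) (x w : Lp ℝ 1 P) (α β : ℝ) :
    |α| * (‖x‖ - 2 * nu P A x) + |β| * (‖w‖ - 2 * nu P Aᶜ w) ≤ ‖α • x + β • w‖ := by
  have h0 := nu_add_compl hA (α • x + β • w)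
  have h1 : nu P A (β • w) ≤ nu P A (α • x + β • w) + nu P A (α • x) := by
    have := nu_sub_le A (α • x + β • w) (α • x)
    simpa using this
  have h2 : nu P Aᶜ (α • x) ≤ nu P Aᶜ (α • x + β • w) + nu P Aᶜ (β • w) := by
    have := nu_sub_le Aᶜ (α • x + β • w) (β • w)
    simpa using this
  rw [nu_smul] at h1 h2
  rw [nu_smul] at h1 h2
  have h3 := nu_add_compl hA x
  have h4 := nu_add_compl hA w
  rw [← h3, ← h4]
  nlinarith [abs_nonneg α, abs_nonneg β]

/-- lower bound of the two-sided sum by splitting the space. -/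
theorem norm_add_add_norm_sub_ge {A : Set Ω} (hA : MeasurableSet A) (x y : Lp ℝ 1 P) (t : ℝ)
    (ht : 0 ≤ t) :
    2 * nu P Aᶜ x + 2 * t * nu P A y ≤ ‖x + t • y‖ + ‖x - t • y‖ := by
  have h1 := nu_add_compl hA (x + t • y)
  have h2 := nu_add_compl hA (x - t • y)
  have h3 : nu P A ((2 * t) • y) ≤ nu P A (x + t • y) + nu P A (x - t • y) := by
    have := nu_sub_le A (x + t • y) (x - t • y)
    have heq : x + t • y - (x - t • y) = (2 * t) • y := by
      rw [two_mul, add_smul]; abel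
    rwa [heq] at this
  have h4 : nu P Aᶜ ((2 : ℝ) • x) ≤ nu P Aᶜ (x + t • y) + nu P Aᶜ (x - t • y) := by
    have := nu_add_le Aᶜ (x + t • y) (x - t • y)
    have heq : x + t • y + (x - t • y) = (2 : ℝ) • x := by
      rw [two_smul]; abel
    rwa [heq] at this
  rw [nu_smul, abs_of_nonneg (by positivity)] at h3
  rw [nu_smul, abs_of_nonneg (by positivity)] at h4
  linarith

/-- `s` is concentrated on a set of measure `< a` up to mass `ε`. -/
def Conc (P : Measure Ω) (a ε : ℝ) (s : Lp ℝ 1 P) : Prop :=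
  ∃ A : Set Ω, MeasurableSet A ∧ P A < ENNReal.ofReal a ∧ nu P Aᶜ s ≤ ε

/-- From the metric of convergence in measure to a concrete set. -/
theorem exists_of_measureDist_lt [IsProbabilityMeasure P] (f g : Lp ℝ 1 P) {a : ℝ}
    (h : Crest.AnalysisR.L1Subspace.measureDist P f g < a) :
    ∃ b : ℝ, 0 < b ∧ b < a ∧ P {z | b < |(f : Ω → ℝ) z - (g : Ω → ℝ) z|} < ENNReal.ofReal b := by
  have hne : {a : ℝ | 0 < a ∧
      P {z | a < abs ((f : Ω → ℝ) z - (g : Ω → ℝ) z)} < ENNReal.ofReal a}.Nonempty := by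
    refine ⟨2, by norm_num, ?_⟩
    calc P {z | 2 < abs ((f : Ω → ℝ) z - (g : Ω → ℝ) z)} ≤ 1 := prob_le_one
      _ < ENNReal.ofReal 2 := by
        rw [show (1 : ENNReal) = ENNReal.ofReal 1 by simp]
        exact (ENNReal.ofReal_lt_ofReal_iff (by norm_num)).mpr (by norm_num)
  obtain ⟨b, ⟨hb1, hb2⟩, hb3⟩ := exists_lt_of_csInf_lt hne h
  exact ⟨b, hb1, hb3, hb2⟩

theorem measurableSet_far (f g : Lp ℝ 1 P) (b : ℝ) :
    MeasurableSet {z | b < |(f : Ω → ℝ) z - (g : Ω → ℝ) z|} := by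
  have hf : Measurable (f : Ω → ℝ) := (Lp.stronglyMeasurable f).measurable
  have hg : Measurable (g : Ω → ℝ) := (Lp.stronglyMeasurable g).measurable
  exact measurableSet_lt measurable_const ((hf.sub hg).abs)

/-- An integral over a set on which the integrand is at most `b`. -/
theorem nu_sub_compl_far_le [IsProbabilityMeasure P] (f g : Lp ℝ 1 P) {b : ℝ} (hb : 0 ≤ b) :
    nu P {z | b < |(f : Ω → ℝ) z - (g : Ω → ℝ) z|}ᶜ (f - g) ≤ b := by
  set A := {z | b < |(f : Ω → ℝ) z - (g : Ω → ℝ) z|} with hA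
  rw [nu_congr _ (Lp.coeFn_sub f g)]
  have hAm : MeasurableSet Aᶜ := (measurableSet_far f g b).compl
  have hint : Integrable (fun z => |((f : Ω → ℝ) - (g : Ω → ℝ)) z|) P :=
    ((L1.integrable_coeFn f).sub (L1.integrable_coeFn g)).abs
  calc ∫ z in Aᶜ, |((f : Ω → ℝ) - (g : Ω → ℝ)) z| ∂P ≤ ∫ z in Aᶜ, b ∂P := by
        apply setIntegral_mono_on hint.integrableOn (integrableOn_const (by simp)) hAm
        intro z hz
        simp only [hA, Set.mem_compl_iff, Set.mem_setOf_eq, not_lt] at hz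
        exact hz
    _ = P.real Aᶜ * b := by simp
    _ ≤ 1 * b := by
        apply mul_le_mul_of_nonneg_right _ hb
        exact measureReal_le_one
    _ = b := one_mul b

/-- A function in the ball that is far from its measure-approximant is concentrated. -/
theorem conc_of_far [IsProbabilityMeasure P] (s g : Lp ℝ 1 P) (hs : ‖s‖ ≤ 1) {a : ℝ}
    (hmd : Crest.AnalysisR.L1Subspace.measureDist P s g < a)
    (hfar : 1 + ‖g‖ - a ≤ ‖s - g‖) : Conc P a (2 * a) s := by
  obtain ⟨b, hb0, hba, hbP⟩ := exists_of_measureDist_lt s g hmd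
  set A := {z | b < |(s : Ω → ℝ) z - (g : Ω → ℝ) z|} with hA
  have hAm : MeasurableSet A := measurableSet_far s g b
  refine ⟨A, hAm, ?_, ?_⟩
  · exact hbP.trans_le (ENNReal.ofReal_le_ofReal hba.le)
  · have h1 : nu P Aᶜ (s - g) ≤ b := nu_sub_compl_far_le s g hb0.le
    have h2 : nu P A (s - g) ≤ nu P A s + nu P A g := nu_sub_le A s g
    have h3 := nu_add_compl hAm (s - g)
    have h4 := nu_add_compl hAm s
    have h5 : nu P A g ≤ ‖g‖ := nu_le_norm A g
    linarith

/-- Absolute continuity of the integral, in the form used here. -/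
theorem exists_pos_nu_le (x : Lp ℝ 1 P) {η : ℝ} (hη : 0 < η) :
    ∃ a : ℝ, 0 < a ∧ ∀ A : Set Ω, P A < ENNReal.ofReal a → nu P A x ≤ η := by
  have hfin : ∫⁻ z, ‖(x : Ω → ℝ) z‖ₑ ∂P ≠ ⊤ :=
    (L1.integrable_coeFn x).2.ne
  obtain ⟨δ, hδ, hδ2⟩ := exists_pos_setLIntegral_lt_of_measure_lt hfin
    (ε := ENNReal.ofReal η) (by simpa using hη)
  refine ⟨(min δ 1).toReal, ?_, ?_⟩
  · apply ENNReal.toReal_pos
    · exact (lt_min hδ one_pos).ne'
    · exact (lt_of_le_of_lt (min_le_right _ _) ENNReal.one_lt_top).ne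
  · intro A hA
    have h1 : P A < δ := by
      refine hA.trans_le ?_
      rw [ENNReal.ofReal_toReal (lt_of_le_of_lt (min_le_right _ _) ENNReal.one_lt_top).ne]
      exact min_le_left _ _
    have h2 := hδ2 A h1
    have h3 : nu P A x = (∫⁻ z in A, ‖(x : Ω → ℝ) z‖ₑ ∂P).toReal := by
      rw [nu]
      have := integral_norm_eq_lintegral_enorm (μ := P.restrict A) (f := (x : Ω → ℝ))
        (Lp.stronglyMeasurable x).aestronglyMeasurable
      simpa [Real.norm_eq_abs] using this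
    rw [h3]
    exact ENNReal.toReal_le_of_le_ofReal hη.le h2.le

end Crest.Agent.S0167Lib
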