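import Mathlib

/-!
Slices in a real normed space with the Daugavet property (rank one form).
Every slice of the unit ball contains a point `y` with `‖x + y‖ > 2 - ε` for
any prescribed finite set of unit vectors `x`.
-/

namespace Crest.Agent.S0167Lib

variable {V : Type*} [NormedAddCommGroup V] [NormedSpace ℝ V]

/-- The Daugavet property (same shape as in the Prelude). -/
def DaugavetRankOne (V : Type*) [NormedAddCommGroup V] [NormedSpace ℝ V] : Prop :=
  ∀ (φ : V →L[ℝ] ℝ) (v : V),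
    ‖ContinuousLinearMap.id ℝ V + φ.smulRight v‖ = 1 + ‖φ.smulRight v‖

/-- One step of the slice lemma. -/
theorem slice_step (hD : DaugavetRankOne V) (f : V →L[ℝ] ℝ) (hf : f ≠ 0) {δ : ℝ} (hδ : 0 < δ)
    (x : V) (hx : ‖x‖ = 1) {ε : ℝ} (hε : 0 < ε) :
    ∃ (f' : V →L[ℝ] ℝ) (δ' : ℝ), f' ≠ 0 ∧ 0 < δ' ∧
      ∀ y : V, ‖y‖ ≤ 1 → ‖f'‖ - δ' < f' y → ‖f‖ - δ < f y ∧ 2 - ε < ‖x + y‖ := by
  have hfpos : 0 < ‖f‖ := norm_pos_iff.mpr hf
  -- normalise
  set f₁ : V →L[ℝ] ℝ := ‖f‖⁻¹ • f with hf₁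
  have hf₁norm : ‖f₁‖ = 1 := by
    rw [hf₁, norm_smul, norm_inv, norm_norm, inv_mul_cancel₀ hfpos.ne']
  set ε₀ : ℝ := min (min (ε / 4) (δ / (3 * ‖f‖))) (1 / 4) with hε₀
  have hε₀pos : 0 < ε₀ := by
    rw [hε₀]; positivity
  have hε₀1 : ε₀ ≤ ε / 4 := (min_le_left _ _).trans (min_le_left _ _)
  have hε₀2 : ε₀ ≤ δ / (3 * ‖f‖) := (min_le_left _ _).trans (min_le_right _ _)
  have hε₀3 : ε₀ ≤ 1 / 4 := min_le_right _ _
  have hT : ‖f₁.smulRight x‖ = 1 := by
    rw [ContinuousLinearMap.norm_smulRight_apply, hf₁norm, hx, mul_one]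
  have hnorm : ‖ContinuousLinearMap.id ℝ V + f₁.smulRight x‖ = 2 := by
    rw [hD f₁ x, hT]; norm_num
  obtain ⟨u, hu, hu2⟩ := (ContinuousLinearMap.id ℝ V + f₁.smulRight x).exists_lt_apply_of_lt_opNorm
    (r := 2 - ε₀) (by rw [hnorm]; linarith)
  have hu' : ‖u‖ ≤ 1 := hu.le
  simp only [ContinuousLinearMap.add_apply, ContinuousLinearMap.id_apply,
    ContinuousLinearMap.smulRight_apply] at hu2
  set w : V := u + f₁ u • x with hw
  obtain ⟨g, hgn, hgw⟩ := exists_dual_vector'' ℝ w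
  simp only [RCLike.ofReal_real_eq_id, id] at hgw
  have hgu : |g u| ≤ 1 := by
    have := g.le_opNorm u
    rw [Real.norm_eq_abs] at this
    nlinarith [norm_nonneg u]
  have hgx : |g x| ≤ 1 := by
    have := g.le_opNorm x
    rw [Real.norm_eq_abs, hx] at this
    linarith
  have hfu : |f₁ u| ≤ 1 := by
    have := f₁.le_opNorm u
    rw [Real.norm_eq_abs, hf₁norm] at this
    linarith
  have hgw' : g w = g u + f₁ u * g x := by
    rw [hw, map_add, map_smul, smul_eq_mul]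
  have hsum : 2 - ε₀ < g u + f₁ u * g x := by
    rw [← hgw', hgw]; exact hu2
  have h1 : 1 - ε₀ < g u := by
    have : f₁ u * g x ≤ 1 := by
      have := abs_mul (f₁ u) (g x)
      have h2 : |f₁ u * g x| ≤ 1 := by
        rw [this]; nlinarith [abs_nonneg (f₁ u), abs_nonneg (g x)]
      exact (abs_le.mp h2).2
    linarith
  have h2 : 1 - ε₀ < f₁ u * g x := by
    have := (abs_le.mp hgu).2
    linarith
  -- choose the sign
  obtain ⟨σ, hσ, hσ2⟩ : ∃ σ : ℝ, σ * σ = 1 ∧ 1 - ε₀ < σ * f₁ u ∧ 1 - ε₀ < σ * g x := by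
    have hprodpos : 0 < f₁ u * g x := by linarith
    rcases lt_or_ge 0 (f₁ u) with hpos | hneg
    · refine ⟨1, by norm_num, ?_, ?_⟩
      · have : f₁ u * g x ≤ f₁ u * 1 := by
          apply mul_le_mul_of_nonneg_left _ hpos.le
          exact (abs_le.mp hgx).2
        linarith
      · have : f₁ u * g x ≤ 1 * g x := by
          have hgxpos : 0 < g x := by
            by_contra hcon
            push Not at hcon
            nlinarith
          apply mul_le_mul_of_nonneg_right _ hgxpos.le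
          exact (abs_le.mp hfu).2
        linarith
    · refine ⟨-1, by norm_num, ?_, ?_⟩
      · have hgxneg : g x ≤ 0 := by
          by_contra hcon
          push Not at hcon
          nlinarith
        have : f₁ u * g x ≤ (-1) * f₁ u := by
          have h3 : (-1 : ℝ) ≤ g x := (abs_le.mp hgx).1
          nlinarith
        linarith
      · have hgxneg : g x ≤ 0 := by
          by_contra hcon
          push Not at hcon
          nlinarith
        have : f₁ u * g x ≤ (-1) * g x := by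
          have h3 : (-1 : ℝ) ≤ f₁ u := (abs_le.mp hfu).1
          nlinarith
        linarith
  obtain ⟨hσ1, hσ3⟩ := hσ2
  have hσabs : |σ| = 1 := by
    have : |σ| * |σ| = 1 := by rw [← abs_mul, hσ, abs_one]
    nlinarith [abs_nonneg σ, sq_abs σ, sq_nonneg (|σ| - 1)]
  set v : V := σ • u with hv
  have hvnorm : ‖v‖ ≤ 1 := by
    rw [hv, norm_smul, Real.norm_eq_abs, hσabs, one_mul]; exact hu'
  set z : V →L[ℝ] ℝ := σ • g with hz
  have hzn : ‖z‖ ≤ 1 := by
    rw [hz, norm_smul, Real.norm_eq_abs, hσabs, one_mul]; exact hgn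
  have hzx : 1 - ε₀ < z x := by
    simpa [hz, ContinuousLinearMap.smul_apply, smul_eq_mul] using hσ3
  have hzv : 1 - ε₀ < z v := by
    have : z v = (σ * σ) * g u := by
      simp [hz, hv, ContinuousLinearMap.smul_apply, smul_eq_mul, map_smul]; ring
    rw [this, hσ, one_mul]; exact h1
  have hf₁v : 1 - ε₀ < f₁ v := by
    have : f₁ v = σ * f₁ u := by simp [hv, map_smul, smul_eq_mul]
    rw [this]; exact hσ1
  set f' : V →L[ℝ] ℝ := f₁ + z with hf'
  have hf'v : f' v = f₁ v + z v := rfl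
  have hf'norm : 2 - 2 * ε₀ < ‖f'‖ := by
    have h3 := f'.le_opNorm v
    have h4 : f' v ≤ ‖f' v‖ := le_abs_self _
    have h5 : ‖f'‖ * ‖v‖ ≤ ‖f'‖ * 1 := mul_le_mul_of_nonneg_left hvnorm (norm_nonneg _)
    linarith
  have hf'ne : f' ≠ 0 := by
    intro h0
    rw [h0, norm_zero] at hf'norm
    linarith
  refine ⟨f', ε₀, hf'ne, hε₀pos, ?_⟩
  intro y hy hfy
  have hzy : z y ≤ 1 := by
    have := z.le_opNorm y
    have h6 : z y ≤ ‖z y‖ := le_abs_self _
    have h7 : ‖z‖ * ‖y‖ ≤ 1 * 1 := mul_le_mul hzn hy (norm_nonneg _) zero_le_one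
    linarith
  have hf₁y : f₁ y ≤ 1 := by
    have := f₁.le_opNorm y
    have h6 : f₁ y ≤ ‖f₁ y‖ := le_abs_self _
    rw [hf₁norm] at this
    linarith
  have hsumy : f' y = f₁ y + z y := rfl
  constructor
  · -- f y large
    have hf₁y' : 1 - 3 * ε₀ < f₁ y := by linarith
    have hfy' : f y = ‖f‖ * f₁ y := by
      simp only [hf₁, ContinuousLinearMap.smul_apply, smul_eq_mul]
      field_simp
    rw [hfy']
    have h8 : ‖f‖ * (1 - 3 * ε₀) < ‖f‖ * f₁ y := mul_lt_mul_of_pos_left hf₁y' hfpos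
    have h9 : ε₀ * (3 * ‖f‖) ≤ δ := by
      have := (le_div_iff₀ (by positivity)).mp hε₀2
      exact this
    nlinarith
  · have hzy' : 1 - 3 * ε₀ < z y := by linarith
    have h10 : z (x + y) ≤ ‖x + y‖ := by
      have := z.le_opNorm (x + y)
      have h6 : z (x + y) ≤ ‖z (x + y)‖ := le_abs_self _
      have h7 : ‖z‖ * ‖x + y‖ ≤ 1 * ‖x + y‖ := mul_le_mul_of_nonneg_right hzn (norm_nonneg _)
      linarith
    rw [map_add] at h10
    linarith

/-- Iterated slice lemma: nested slices for a finite list of unit vectors. -/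
theorem slice_finset (hD : DaugavetRankOne V) [DecidableEq V] (X : Finset V)
    (hX : ∀ x ∈ X, ‖x‖ = 1) (f : V →L[ℝ] ℝ) (hf : f ≠ 0) {δ : ℝ} (hδ : 0 < δ)
    {ε : ℝ} (hε : 0 < ε) :
    ∃ (f' : V →L[ℝ] ℝ) (δ' : ℝ), f' ≠ 0 ∧ 0 < δ' ∧
      ∀ y : V, ‖y‖ ≤ 1 → ‖f'‖ - δ' < f' y → ‖f‖ - δ < f y ∧ ∀ x ∈ X, 2 - ε < ‖x + y‖ := by
  induction X using Finset.induction_on with
  | empty =>
    refine ⟨f, δ, hf, hδ, ?_⟩
    intro y _ hy
    exact ⟨hy, by simp⟩
  | insert a s _ ih =>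
    obtain ⟨f₁, δ₁, hf₁, hδ₁, h₁⟩ := ih (fun x hx => hX x (Finset.mem_insert_of_mem hx))
    obtain ⟨f₂, δ₂, hf₂, hδ₂, h₂⟩ := slice_step hD f₁ hf₁ hδ₁ a (hX a (Finset.mem_insert_self _ _)) hε
    refine ⟨f₂, δ₂, hf₂, hδ₂, ?_⟩
    intro y hy hfy
    obtain ⟨h3, h4⟩ := h₂ y hy hfy
    obtain ⟨h5, h6⟩ := h₁ y hy h3
    refine ⟨h5, ?_⟩
    intro x hx
    rcases Finset.mem_insert.mp hx with rfl | hx'
    · exact h4
    · exact h6 x hx'

theorem norm_pos_of_ne (f : V →L[ℝ] ℝ) (hf : f ≠ 0) : 0 < ‖f‖ := norm_pos_iff.mpr hf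

/-- A slice of the unit ball is nonempty. -/
theorem exists_slice_point (f : V →L[ℝ] ℝ) (hf : f ≠ 0) {δ : ℝ} (hδ : 0 < δ) :
    ∃ y : V, ‖y‖ ≤ 1 ∧ ‖f‖ - δ < f y := by
  have hfpos : 0 < ‖f‖ := norm_pos_iff.mpr hf
  obtain ⟨u, hu, hu2⟩ := f.exists_lt_apply_of_lt_opNorm (r := ‖f‖ - δ) (by linarith)
  rcases lt_or_ge 0 (f u) with hpos | hneg
  · refine ⟨u, hu.le, ?_⟩
    rwa [Real.norm_eq_abs, abs_of_pos hpos] at hu2
  · refine ⟨-u, by simpa using hu.le, ?_⟩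
    rw [map_neg]
    rwa [Real.norm_eq_abs, abs_of_nonpos hneg] at hu2

/-- Main output of this file: every slice contains a point that is almost `2`-away
(in the `x + y` sense) from each of finitely many unit vectors. -/
theorem exists_slice_point_far (hD : DaugavetRankOne V) (X : Finset V)
    (hX : ∀ x ∈ X, ‖x‖ = 1) (f : V →L[ℝ] ℝ) (hf : f ≠ 0) {δ : ℝ} (hδ : 0 < δ)
    {ε : ℝ} (hε : 0 < ε) :
    ∃ y : V, ‖y‖ ≤ 1 ∧ ‖f‖ - δ < f y ∧ ∀ x ∈ X, 2 - ε < ‖x + y‖ := by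
  classical
  obtain ⟨f', δ', hf', hδ', h⟩ := slice_finset hD X hX f hf hδ hε
  obtain ⟨y, hy, hy2⟩ := exists_slice_point f' hf' hδ'
  obtain ⟨h3, h4⟩ := h y hy hy2
  exact ⟨y, hy, h3, h4⟩

end Crest.Agent.S0167Lib
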