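import Crest.Agent.S0167Lib.Slices
import Crest.Agent.S0167Lib.Hull
import Crest.Agent.S0167Lib.L1Core

namespace Crest.Agent.S0167Lib

open MeasureTheory Crest.AnalysisR.L1Subspace

variable {Ω : Type} [MeasurableSpace Ω] {P : Measure Ω} [IsProbabilityMeasure P]
  {E : Submodule ℝ (Lp ℝ 1 P)}

/-- Every slice of the ball of `E` holds a concentrated point. -/
theorem exists_spike (htb : UnitBallTotallyBoundedInMeasure P E) (hD : HasDaugavetProperty E)
    (f : E →L[ℝ] ℝ) (hf : f ≠ 0) {δ a : ℝ} (hδ : 0 < δ) (ha : 0 < a) :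
    ∃ s : E, ‖s‖ ≤ 1 ∧ ‖f‖ - δ < f s ∧ Conc P a (2 * a) (s : Lp ℝ 1 P) := by
  classical
  obtain ⟨G, hG1, hG2⟩ := htb a ha
  have hfpos : 0 < ‖f‖ := norm_pos_of_ne f hf
  let G' : Finset E := G.subtype (· ∈ E)
  let X : Finset E := (G'.filter (· ≠ 0)).image (fun g => -(‖g‖⁻¹ • g))
  have hX : ∀ x ∈ X, ‖x‖ = 1 := by
    intro x hx
    obtain ⟨g, hg, rfl⟩ := Finset.mem_image.mp hx
    have hg0 : g ≠ 0 := (Finset.mem_filter.mp hg).2
    rw [norm_neg, norm_smul, norm_inv, norm_norm, inv_mul_cancel₀ (norm_ne_zero_iff.mpr hg0)]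
  have hδ' : 0 < min δ (a * ‖f‖) := lt_min hδ (mul_pos ha hfpos)
  obtain ⟨y, hy, hfy, hfar⟩ := exists_slice_point_far (V := E) hD X hX f hf hδ' ha
  have hfy1 : ‖f‖ - δ < f y := by
    have := min_le_left δ (a * ‖f‖)
    linarith
  have hynorm : 1 - a < ‖y‖ := by
    have h1 : ‖f‖ - a * ‖f‖ < f y := by
      have := min_le_right δ (a * ‖f‖)
      linarith
    have h2 : f y ≤ ‖f‖ * ‖y‖ := (le_abs_self _).trans (f.le_opNorm y)
    have h3 : ‖f‖ * (1 - a) < ‖f‖ * ‖y‖ := by nlinarith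
    exact lt_of_mul_lt_mul_left h3 hfpos.le
  refine ⟨y, hy, hfy1, ?_⟩
  obtain ⟨g, hgG, hgd⟩ := hG2 (y : Lp ℝ 1 P) y.2 hy
  obtain ⟨hgE, hgn⟩ := hG1 g hgG
  apply conc_of_far (y : Lp ℝ 1 P) g hy hgd
  -- the distance estimate
  by_cases hg0 : g = 0
  · subst hg0
    simp only [norm_zero, add_zero, sub_zero]
    exact hynorm.le
  · let gE : E := ⟨g, hgE⟩
    have hgE0 : gE ≠ 0 := by
      intro h
      apply hg0
      exact congrArg Subtype.val h
    have hgEnorm : ‖gE‖ = ‖g‖ := rfl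
    have hgpos : 0 < ‖g‖ := norm_pos_iff.mpr hg0
    have hmem : -(‖gE‖⁻¹ • gE) ∈ X := by
      apply Finset.mem_image.mpr
      refine ⟨gE, ?_, rfl⟩
      apply Finset.mem_filter.mpr
      refine ⟨?_, hgE0⟩
      exact Finset.mem_subtype.mpr hgG
    have h1 := hfar _ hmem
    -- transfer to `Lp`
    have h2 : ‖-(‖gE‖⁻¹ • gE) + y‖ = ‖(y : Lp ℝ 1 P) - ‖g‖⁻¹ • g‖ := by
      have h3 : ((-(‖gE‖⁻¹ • gE) + y : E) : Lp ℝ 1 P) = (y : Lp ℝ 1 P) - ‖g‖⁻¹ • g := by
        simp only [Submodule.coe_add, Submodule.coe_neg, Submodule.coe_smul]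
        rw [hgEnorm]
        abel
      rw [← h3]
      rfl
    rw [h2] at h1
    have h4 : ‖g - ‖g‖⁻¹ • g‖ = 1 - ‖g‖ := by
      have h5 : g - ‖g‖⁻¹ • g = (1 - ‖g‖⁻¹) • g := by rw [sub_smul, one_smul]
      rw [h5, norm_smul, Real.norm_eq_abs]
      have h6 : 1 ≤ ‖g‖⁻¹ := (one_le_inv₀ hgpos).mpr hgn
      rw [abs_of_nonpos (by linarith)]
      field_simp
      ring
    have h7 : ‖(y : Lp ℝ 1 P) - ‖g‖⁻¹ • g‖ ≤ ‖(y : Lp ℝ 1 P) - g‖ + ‖g - ‖g‖⁻¹ • g‖ :=
      norm_sub_le_norm_sub_add_norm_sub _ _ _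
    linarith

theorem finiteDimensional_quot_of_eq_ker {V W : Type*} [AddCommGroup V] [Module ℝ V]
    [AddCommGroup W] [Module ℝ W] [FiniteDimensional ℝ W] (L : V →ₗ[ℝ] W) (S : Submodule ℝ V)
    (h : S = LinearMap.ker L) : FiniteDimensional ℝ (V ⧸ S) := by
  subst h
  exact (L.quotKerEquivRange).symm.finiteDimensional

/-- The key lemma: modulo a closed finite-codimensional subspace any point of the open ball
is represented by an almost-norm-one element concentrated off the mass of a given `x`. -/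
theorem key_lemma (htb : UnitBallTotallyBoundedInMeasure P E) (hD : HasDaugavetProperty E)
    (hinf : ¬ FiniteDimensional ℝ E) (S : Submodule ℝ E) (hS : IsClosed (S : Set E))
    (hfin : FiniteDimensional ℝ (E ⧸ S)) (x z : E) (hz : ‖z‖ < 1) {η : ℝ} (hη : 0 < η) :
    ∃ w : E, w - z ∈ S ∧ ‖w‖ ≤ 1 ∧ 1 - η ≤ ‖w‖ ∧
      ∃ A : Set Ω, MeasurableSet A ∧ nu P A (x : Lp ℝ 1 P) ≤ η ∧ nu P Aᶜ (w : Lp ℝ 1 P) ≤ η := by
  classical
  -- a unit vector in `S`
  have hSne : S ≠ ⊥ := by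
    intro h
    exact hinf ((Submodule.quotEquivOfEqBot S h).finiteDimensional)
  obtain ⟨u₀, hu₀, hu₀ne⟩ := Submodule.exists_mem_ne_zero_of_ne_bot hSne
  set u : E := ‖u₀‖⁻¹ • u₀ with hu
  have huS : u ∈ S := S.smul_mem _ hu₀
  have hunorm : ‖u‖ = 1 := by
    rw [hu, norm_smul, norm_inv, norm_norm, inv_mul_cancel₀ (norm_ne_zero_iff.mpr hu₀ne)]
  -- target norm
  set η' : ℝ := min η (1 - ‖z‖) with hη'
  have hη'pos : 0 < η' := lt_min hη (by linarith)
  have hη'1 : η' ≤ η := min_le_left _ _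
  have hη'2 : η' ≤ 1 - ‖z‖ := min_le_right _ _
  set ρ : ℝ := 1 - η' with hρ
  have hzρ : ‖z‖ ≤ ρ := by rw [hρ]; linarith
  have hρ1 : ρ < 1 := by rw [hρ]; linarith
  -- intermediate value
  have hcont : Continuous (fun r : ℝ => ‖z + r • u‖) := by fun_prop
  have h2 : ρ ≤ ‖z + (2 : ℝ) • u‖ := by
    have h3 : ‖(2 : ℝ) • u‖ ≤ ‖z + (2 : ℝ) • u‖ + ‖z‖ := by
      have := norm_sub_le (z + (2 : ℝ) • u) z
      simpa using this
    have h4 : ‖(2 : ℝ) • u‖ = 2 := by rw [norm_smul, hunorm]; norm_num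
    rw [h4] at h3
    linarith
  have hivt := intermediate_value_Icc (a := (0 : ℝ)) (b := 2) (by norm_num) hcont.continuousOn
  obtain ⟨r, hr, hrρ⟩ := hivt ⟨by simpa using hzρ, h2⟩
  simp only at hrρ
  set z' : E := z + r • u with hz'
  have hz'norm : ‖z'‖ = ρ := hrρ
  obtain ⟨θ, hθn, hθz⟩ := exists_dual_vector'' ℝ z'
  simp only [RCLike.ofReal_real_eq_id, id] at hθz
  -- the smaller subspace
  set S' : Submodule ℝ E := S ⊓ LinearMap.ker (θ : E →ₗ[ℝ] ℝ) with hS'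
  have hS'le : S' ≤ S := inf_le_left
  have hS'closed : IsClosed (S' : Set E) := by
    rw [hS', Submodule.coe_inf]
    exact hS.inter θ.isClosed_ker
  have hS'fin : FiniteDimensional ℝ (E ⧸ S') := by
    have := hfin
    apply finiteDimensional_quot_of_eq_ker (W := (E ⧸ S) × ℝ) (S.mkQ.prod (θ : E →ₗ[ℝ] ℝ))
    rw [LinearMap.ker_prod, Submodule.ker_mkQ]
  -- levels
  set d : ℕ := Module.finrank ℝ (E ⧸ S') with hd
  obtain ⟨a₀, ha₀, ha₀2⟩ := exists_pos_nu_le (x : Lp ℝ 1 P) hη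
  set a' : ℝ := min (a₀ / (d + 2)) (η / 2) with ha'
  have ha'pos : 0 < a' := lt_min (by positivity) (by linarith)
  have ha'1 : a' ≤ a₀ / (d + 2) := min_le_left _ _
  have ha'2 : a' ≤ η / 2 := min_le_right _ _
  -- the spikes
  set T : Set E := {s | ‖s‖ ≤ 1 ∧ Conc P a' (2 * a') (s : Lp ℝ 1 P)} with hT
  have hTnorm : ∀ f : E →L[ℝ] ℝ, f ≠ 0 → ∀ δ : ℝ, 0 < δ → ∃ s ∈ T, ‖f‖ - δ < f s := by
    intro f hf δ hδ
    obtain ⟨s, hs1, hs2, hs3⟩ := exists_spike htb hD f hf hδ ha'pos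
    exact ⟨s, ⟨hs1, hs3⟩, hs2⟩
  have hTne : T.Nonempty := by
    obtain ⟨g, hg1, hg2⟩ := exists_dual_vector ℝ u (by rw [hunorm]; norm_num)
    have hg0 : g ≠ 0 := by
      intro h0
      rw [h0] at hg2
      simp only [zero_apply] at hg2
      rw [hunorm] at hg2
      norm_num at hg2
    obtain ⟨s, hs, _⟩ := hTnorm g hg0 1 one_pos
    exact ⟨s, hs⟩
  have hz'1 : ‖z'‖ < 1 := by rw [hz'norm]; exact hρ1
  obtain ⟨n, s, w, hn, hsT, hw, hwsum, hmem⟩ := mem_hull_mod T hTne hTnorm S' hS'closed z' hz'1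
  set v : E := ∑ i, w i • s i with hv
  have hvz' : v - z' ∈ S' := hmem
  refine ⟨v, ?_, ?_, ?_, ?_⟩
  · -- membership in `S`
    have h5 : v - z = (v - z') + r • u := by rw [hz']; abel
    rw [h5]
    exact S.add_mem (hS'le hvz') (S.smul_mem _ huS)
  · -- norm at most one
    calc ‖v‖ ≤ ∑ i, ‖w i • s i‖ := norm_sum_le _ _
      _ = ∑ i, w i * ‖s i‖ := by
          apply Finset.sum_congr rfl
          intro i _
          rw [norm_smul, Real.norm_eq_abs, abs_of_pos (hw i)]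
      _ ≤ ∑ i, w i * 1 := by
          apply Finset.sum_le_sum
          intro i _
          exact mul_le_mul_of_nonneg_left (hsT i).1 (hw i).le
      _ = 1 := by simp [hwsum]
  · -- norm at least `1 - η`
    have h6 : θ (v - z') = 0 := by
      have := (Submodule.mem_inf.mp hvz').2
      simpa using this
    rw [map_sub, sub_eq_zero] at h6
    have h7 : θ v ≤ ‖v‖ := by
      have h8 := θ.le_opNorm v
      have h9 : θ v ≤ ‖θ v‖ := le_abs_self _
      have h10 : ‖θ‖ * ‖v‖ ≤ 1 * ‖v‖ := mul_le_mul_of_nonneg_right hθn (norm_nonneg _)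
      linarith
    rw [h6, hθz, hz'norm] at h7
    rw [hρ] at h7
    linarith
  · -- concentration
    choose A hAm hAP hAν using fun i => (hsT i).2
    have hAUm : MeasurableSet (⋃ i, A i) := MeasurableSet.iUnion hAm
    refine ⟨⋃ i, A i, hAUm, ?_, ?_⟩
    · apply ha₀2
      calc P (⋃ i, A i) ≤ ∑ i, P (A i) := measure_iUnion_fintype_le _ _
        _ ≤ ∑ _i : Fin n, ENNReal.ofReal a' := Finset.sum_le_sum (fun i _ => (hAP i).le)
        _ = ENNReal.ofReal (n * a') := by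
            simp only [Finset.sum_const, Finset.card_univ, Fintype.card_fin, nsmul_eq_mul]
            rw [ENNReal.ofReal_mul (by positivity)]
            simp
        _ < ENNReal.ofReal a₀ := by
            apply (ENNReal.ofReal_lt_ofReal_iff ha₀).mpr
            have h11 : (n : ℝ) ≤ d + 1 := by exact_mod_cast hn
            have h12 : a' * (d + 2) ≤ a₀ := (le_div_iff₀ (by positivity)).mp ha'1
            nlinarith
    · have h13 : ((v : E) : Lp ℝ 1 P) = ∑ i, w i • (s i : Lp ℝ 1 P) := by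
        rw [hv, Submodule.coe_sum]
        rfl
      rw [h13]
      refine (nu_sum_le _ _ w _ (fun i _ => (hw i).le)).trans ?_
      have h14 : ∀ i, nu P (⋃ i, A i)ᶜ (s i : Lp ℝ 1 P) ≤ 2 * a' := by
        intro i
        refine (nu_mono ?_ _).trans (hAν i)
        exact Set.compl_subset_compl.mpr (Set.subset_iUnion A i)
      calc ∑ i, w i * nu P (⋃ i, A i)ᶜ (s i : Lp ℝ 1 P) ≤ ∑ i, w i * (2 * a') :=
            Finset.sum_le_sum (fun i _ => mul_le_mul_of_nonneg_left (h14 i) (hw i).le)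
        _ = 2 * a' := by rw [← Finset.sum_mul, hwsum, one_mul]
        _ ≤ η := by linarith

end Crest.Agent.S0167Lib
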